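import Mathlib

/-!
Planar areas: Lebesgue measure of parallelograms and triangles in `EuclideanSpace ℝ (Fin 2)`.
-/

set_option autoImplicit false
open MeasureTheory Set

namespace Crest.Agent.Cyl

abbrev E2 := EuclideanSpace ℝ (Fin 2)
abbrev E3 := EuclideanSpace ℝ (Fin 3)

/-! ### convex hull of three points -/

lemma mem_convexHull_three {E : Type*} [AddCommGroup E] [Module ℝ E] (p q r : E) (α β γ : ℝ)
    (hα : 0 ≤ α) (hβ : 0 ≤ β) (hγ : 0 ≤ γ) (h : α + β + γ = 1) :
    α • p + β • q + γ • r ∈ convexHull ℝ ({p, q, r} : Set E) := by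
  have hp : p ∈ convexHull ℝ ({p, q, r} : Set E) := subset_convexHull ℝ _ (by simp)
  have hq : q ∈ convexHull ℝ ({p, q, r} : Set E) := subset_convexHull ℝ _ (by simp)
  have hr : r ∈ convexHull ℝ ({p, q, r} : Set E) := subset_convexHull ℝ _ (by simp)
  have := (convex_convexHull ℝ ({p, q, r} : Set E)).sum_mem (t := Finset.univ)
    (w := ![α, β, γ]) (z := ![p, q, r])
    (by intro i _; fin_cases i <;> simp [hα, hβ, hγ]) (by simp [Fin.sum_univ_three, h])
    (by intro i _; fin_cases i <;> simp [hp, hq, hr])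
  simpa [Fin.sum_univ_three] using this

lemma convexHull_three_eq {E : Type*} [AddCommGroup E] [Module ℝ E] (p q r : E) :
    convexHull ℝ ({p, q, r} : Set E) =
      {x | ∃ α β γ : ℝ, 0 ≤ α ∧ 0 ≤ β ∧ 0 ≤ γ ∧ α + β + γ = 1 ∧ x = α • p + β • q + γ • r} := by
  apply Subset.antisymm
  · apply convexHull_min
    · intro x hx
      simp only [mem_insert_iff, mem_singleton_iff] at hx
      rcases hx with rfl | rfl | rfl
      · exact ⟨1, 0, 0, by norm_num, le_rfl, le_rfl, by norm_num, by simp⟩
      · exact ⟨0, 1, 0, le_rfl, by norm_num, le_rfl, by norm_num, by simp⟩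
      · exact ⟨0, 0, 1, le_rfl, le_rfl, by norm_num, by norm_num, by simp⟩
    · rintro x ⟨α, β, γ, hα, hβ, hγ, h, rfl⟩ y ⟨α', β', γ', hα', hβ', hγ', h', rfl⟩ a b ha hb hab
      refine ⟨a * α + b * α', a * β + b * β', a * γ + b * γ', by positivity, by positivity,
        by positivity, ?_, ?_⟩
      · calc _ = a * (α + β + γ) + b * (α' + β' + γ') := by ring
          _ = 1 := by rw [h, h']; linarith
      · simp only [smul_add, add_smul, mul_smul]; abel
  · rintro x ⟨α, β, γ, hα, hβ, hγ, h, rfl⟩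
    exact mem_convexHull_three p q r α β γ hα hβ hγ h

/-- triangle as `p + s (q-p) + t (r-p)` with `s,t ≥ 0`, `s+t ≤ 1`. -/
lemma convexHull_three_eq' {E : Type*} [AddCommGroup E] [Module ℝ E] (p q r : E) :
    convexHull ℝ ({p, q, r} : Set E) =
      {x | ∃ s t : ℝ, 0 ≤ s ∧ 0 ≤ t ∧ s + t ≤ 1 ∧ x = p + s • (q - p) + t • (r - p)} := by
  rw [convexHull_three_eq]
  ext x
  constructor
  · rintro ⟨α, β, γ, hα, hβ, hγ, h, rfl⟩
    refine ⟨β, γ, hβ, hγ, by linarith, ?_⟩
    have : α = 1 - β - γ := by linarith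
    subst this
    simp only [smul_sub, sub_smul, one_smul]; abel
  · rintro ⟨s, t, hs, ht, hst, rfl⟩
    refine ⟨1 - s - t, s, t, by linarith, hs, ht, by ring, ?_⟩
    simp only [smul_sub, sub_smul, one_smul]; abel

/-! ### planar determinant and the column map -/

/-- planar determinant -/
def det2 (a b : E2) : ℝ := a 0 * b 1 - a 1 * b 0

/-- the linear map `x ↦ x 0 • a + x 1 • b` -/
noncomputable def colMap (a b : E2) : E2 →ₗ[ℝ] E2 :=
  Matrix.toLpLin 2 2 !![a 0, b 0; a 1, b 1]

lemma colMap_apply (a b x : E2) : colMap a b x = x 0 • a + x 1 • b := by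
  ext i
  fin_cases i <;>
    simp [colMap, Matrix.toLpLin_apply, dotProduct, Fin.sum_univ_two] <;> ring

lemma det_colMap (a b : E2) : LinearMap.det (colMap a b) = det2 a b := by
  simp [colMap, det2, Matrix.det_fin_two]; ring

/-! ### the unit square -/

def unitSquare : Set E2 := {x | ∀ i, x i ∈ Icc (0:ℝ) 1}

lemma volume_unitSquare : volume unitSquare = 1 := by
  have h := (PiLp.volume_preserving_ofLp (Fin 2)).measure_preimage
    (s := Set.pi univ (fun _ => Icc (0:ℝ) 1))
    (MeasurableSet.univ_pi (fun _ => measurableSet_Icc)).nullMeasurableSet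
  have h2 : (WithLp.ofLp : E2 → (Fin 2 → ℝ)) ⁻¹' (Set.pi univ (fun _ => Icc (0:ℝ) 1))
      = unitSquare := by
    ext x; simp only [unitSquare, mem_preimage, mem_pi, mem_univ, true_implies]; rfl
  rw [h2] at h
  rw [h, volume_pi_pi]
  simp

/-- closed parallelogram -/
def pgram {E : Type*} [AddCommGroup E] [Module ℝ E] (c a b : E) : Set E :=
  {x | ∃ s ∈ Icc (0:ℝ) 1, ∃ t ∈ Icc (0:ℝ) 1, x = c + s • a + t • b}

lemma pgram_eq_image (c a b : E2) :
    pgram c a b = (fun x => c + x) '' (colMap a b '' unitSquare) := by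
  ext x
  simp only [pgram, mem_image, exists_exists_and_eq_and, colMap_apply]
  constructor
  · rintro ⟨s, hs, t, ht, rfl⟩
    refine ⟨!₂[s, t], ?_, by simp [add_assoc]⟩
    intro i; fin_cases i <;> simpa
  · rintro ⟨y, hy, rfl⟩
    exact ⟨y 0, hy 0, y 1, hy 1, by simp [add_assoc]⟩

lemma volume_pgram (c a b : E2) : volume (pgram c a b) = ENNReal.ofReal |det2 a b| := by
  rw [pgram_eq_image, image_add_left, measure_preimage_add, Measure.addHaar_image_linearMap,
    volume_unitSquare, det_colMap, mul_one]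

/-! ### level sets of nonzero linear functionals are null -/

lemma volume_level_eq_zero (φ : E2 →ₗ[ℝ] ℝ) (hφ : φ ≠ 0) (c : ℝ) :
    volume {x : E2 | φ x = c} = 0 := by
  obtain ⟨x₀, hx₀⟩ : ∃ x₀, φ x₀ = c := by
    obtain ⟨y, hy⟩ : ∃ y, φ y ≠ 0 := by
      by_contra h
      push Not at h
      exact hφ (LinearMap.ext h)
    exact ⟨(c / φ y) • y, by simp [hy]⟩
  have h1 : {x : E2 | φ x = c} = (fun x => -x₀ + x) ⁻¹' (LinearMap.ker φ : Set E2) := by
    ext x
    simp only [← hx₀, mem_preimage, SetLike.mem_coe, LinearMap.mem_ker, map_add, map_neg]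
    constructor
    · intro h; rw [show φ x = φ x₀ from h]; ring
    · intro h; show φ x = φ x₀; linarith
  rw [h1, measure_preimage_add]
  apply Measure.addHaar_submodule
  intro h
  apply hφ
  exact LinearMap.ker_eq_top.mp h

/-! ### triangles -/

def stdTri : Set E2 := {x | 0 ≤ x 0 ∧ 0 ≤ x 1 ∧ x 0 + x 1 ≤ 1}

lemma measurableSet_stdTri : MeasurableSet stdTri := by
  have h0 : Measurable (fun x : E2 => x 0) := by fun_prop
  have h1 : Measurable (fun x : E2 => x 1) := by fun_prop
  exact (measurableSet_le measurable_const h0).inter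
    ((measurableSet_le measurable_const h1).inter (measurableSet_le (h0.add h1) measurable_const))

lemma volume_stdTri : volume stdTri = ENNReal.ofReal (1 / 2) := by
  set v : E2 := !₂[1, 1] with hv
  set T' : Set E2 := (fun x => -x) ⁻¹' ((fun y => v + y) ⁻¹' stdTri) with hT'
  have hvol : volume T' = volume stdTri := by
    rw [hT', Measure.measure_preimage_neg, measure_preimage_add]
  have hT'mem : ∀ x : E2, x ∈ T' ↔ (x 0 ≤ 1 ∧ x 1 ≤ 1 ∧ 1 ≤ x 0 + x 1) := by
    intro x
    simp only [hT', hv, stdTri, mem_preimage]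
    show (0 ≤ (!₂[(1:ℝ), 1] + -x) 0 ∧ 0 ≤ (!₂[(1:ℝ), 1] + -x) 1 ∧
      (!₂[(1:ℝ), 1] + -x) 0 + (!₂[(1:ℝ), 1] + -x) 1 ≤ 1) ↔ _
    simp only [PiLp.add_apply, PiLp.neg_apply]
    simp
    intro _ _
    constructor <;> intro h <;> linarith
  have hunion : stdTri ∪ T' = unitSquare := by
    ext x
    simp only [mem_union, hT'mem]
    constructor
    · rintro (⟨h1, h2, h3⟩ | ⟨h1, h2, h3⟩)
      · intro i; fin_cases i
        · exact ⟨h1, by simp; linarith⟩
        · exact ⟨h2, by simp; linarith⟩
      · intro i; fin_cases i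
        · exact ⟨by simp; linarith, h1⟩
        · exact ⟨by simp; linarith, h2⟩
    · intro h
      have h0 := h 0
      have h1 := h 1
      by_cases hc : x 0 + x 1 ≤ 1
      · exact Or.inl ⟨h0.1, h1.1, hc⟩
      · exact Or.inr ⟨h0.2, h1.2, by linarith⟩
  have hinter : volume (stdTri ∩ T') = 0 := by
    let φ : E2 →ₗ[ℝ] ℝ :=
      { toFun := fun x => x 0 + x 1
        map_add' := by intro x y; simp; ring
        map_smul' := by intro c x; simp; ring }
    have hφ : φ ≠ 0 := by
      intro h
      have := congrArg (fun f => f v) h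
      simp [φ, hv] at this
    refine measure_mono_null ?_ (volume_level_eq_zero φ hφ 1)
    rintro x ⟨⟨_, _, h3⟩, hx⟩
    have := ((hT'mem x).1 hx).2.2
    show x 0 + x 1 = 1
    linarith
  have hT'meas : MeasurableSet T' :=
    (measurableSet_stdTri.preimage (measurable_const_add v)).preimage measurable_neg
  have key := measure_union_add_inter stdTri hT'meas (μ := volume)
  rw [hunion, hinter, volume_unitSquare, hvol, add_zero] at key
  -- 1 = 2 * vol
  have hne : volume stdTri ≠ ⊤ := by
    intro h; rw [h] at key; simp at key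
  have : (volume stdTri).toReal = 1 / 2 := by
    have := congrArg ENNReal.toReal key
    rw [ENNReal.toReal_add hne hne] at this
    simp at this
    linarith
  rw [← this, ENNReal.ofReal_toReal hne]

lemma tri_eq_image (p q r : E2) :
    convexHull ℝ ({p, q, r} : Set E2) = (fun x => p + x) '' (colMap (q - p) (r - p) '' stdTri) := by
  rw [convexHull_three_eq']
  ext x
  simp only [mem_image, exists_exists_and_eq_and, colMap_apply]
  constructor
  · rintro ⟨s, t, hs, ht, hst, rfl⟩
    refine ⟨!₂[s, t], ⟨by simpa, by simpa, by simpa⟩, by simp [add_assoc]⟩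
  · rintro ⟨y, ⟨h0, h1, h2⟩, rfl⟩
    exact ⟨y 0, y 1, h0, h1, h2, by simp [add_assoc]⟩

lemma volume_tri (p q r : E2) :
    volume (convexHull ℝ ({p, q, r} : Set E2)) = ENNReal.ofReal (|det2 (q - p) (r - p)| / 2) := by
  rw [tri_eq_image, image_add_left, measure_preimage_add, Measure.addHaar_image_linearMap,
    volume_stdTri, det_colMap, ← ENNReal.ofReal_mul (abs_nonneg _)]
  congr 1; ring

end Crest.Agent.Cyl
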