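import Crest.Agent.Lib_Cyl.Area2

/-!
Areas (`μHE[2]`) of planar figures sitting in `EuclideanSpace ℝ (Fin 3)`.
-/

set_option autoImplicit false
open MeasureTheory Set

namespace Crest.Agent.Cyl

/-- Gram determinant of two vectors -/
noncomputable def gram {E : Type*} [NormedAddCommGroup E] [InnerProductSpace ℝ E] (a b : E) : ℝ :=
  ‖a‖ ^ 2 * ‖b‖ ^ 2 - (inner ℝ a b) ^ 2

lemma gram_nonneg {E : Type*} [NormedAddCommGroup E] [InnerProductSpace ℝ E] (a b : E) :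
    0 ≤ gram a b := by
  have h := abs_real_inner_le_norm a b
  have h2 : (inner ℝ a b) ^ 2 ≤ (‖a‖ * ‖b‖) ^ 2 := by
    rw [← sq_abs (inner ℝ a b)]
    exact pow_le_pow_left₀ (abs_nonneg _) h 2
  unfold gram
  nlinarith

lemma det2_sq (a b : E2) : det2 a b ^ 2 = gram a b := by
  simp only [det2, gram, EuclideanSpace.norm_sq_eq, PiLp.inner_apply, Fin.sum_univ_two,
    Real.norm_eq_abs, sq_abs]
  simp
  ring

lemma abs_det2 (a b : E2) : |det2 a b| = Real.sqrt (gram a b) := by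
  rw [← det2_sq, Real.sqrt_sq_eq_abs]

lemma gram_map {E F : Type*} [NormedAddCommGroup E] [InnerProductSpace ℝ E]
    [NormedAddCommGroup F] [InnerProductSpace ℝ F] (ι : E →ₗᵢ[ℝ] F) (a b : E) :
    gram (ι a) (ι b) = gram a b := by
  simp [gram, ι.norm_map, ι.inner_map_map]

instance : Fact (Module.finrank ℝ E3 = 2 + 1) := ⟨by simp⟩

lemma exists_planeIso (u : E3) (hu : ‖u‖ = 1) :
    ∃ ι : E2 →ₗᵢ[ℝ] E3, ∀ x, inner ℝ x u = 0 ↔ x ∈ Set.range ι := by
  have hu0 : u ≠ 0 := by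
    intro h; rw [h] at hu; simp at hu
  have hfin : Module.finrank ℝ (ℝ ∙ u)ᗮ = 2 := Submodule.finrank_orthogonal_span_singleton hu0
  let b : OrthonormalBasis (Fin 2) ℝ (ℝ ∙ u)ᗮ :=
    (stdOrthonormalBasis ℝ (ℝ ∙ u)ᗮ).reindex (finCongr hfin)
  refine ⟨((ℝ ∙ u)ᗮ).subtypeₗᵢ.comp b.repr.symm.toLinearIsometry, ?_⟩
  intro x
  constructor
  · intro hx
    have hx' : x ∈ (ℝ ∙ u)ᗮ := by
      rw [Submodule.mem_orthogonal_singleton_iff_inner_left]; exact hx
    exact ⟨b.repr ⟨x, hx'⟩, by simp⟩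
  · rintro ⟨y, rfl⟩
    have : ((b.repr.symm y : (ℝ ∙ u)ᗮ) : E3) ∈ (ℝ ∙ u)ᗮ := (b.repr.symm y).2
    rw [Submodule.mem_orthogonal_singleton_iff_inner_left] at this
    simpa using this

lemma exists_unit_orthogonal (a b : E3) :
    ∃ u : E3, ‖u‖ = 1 ∧ inner ℝ a u = 0 ∧ inner ℝ b u = 0 := by
  set S : Submodule ℝ E3 := Submodule.span ℝ {a, b} with hS
  have hlt : Module.finrank ℝ S < Module.finrank ℝ E3 := by
    have h1 : Module.finrank ℝ S ≤ ({a, b} : Finset E3).card := by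
      have := finrank_span_finset_le_card (R := ℝ) ({a, b} : Finset E3)
      have h0 : ((({a, b} : Finset E3)) : Set E3) = {a, b} := by simp
      rw [Set.finrank, h0] at this
      exact this
    have h2 : ({a, b} : Finset E3).card ≤ 2 := Finset.card_le_two
    have h3 : Module.finrank ℝ E3 = 3 := by simp
    omega
  have hne : Sᗮ ≠ ⊥ := by
    intro h
    rw [Submodule.orthogonal_eq_bot_iff] at h
    rw [h] at hlt
    simp at hlt
  obtain ⟨w, hw, hw0⟩ := Submodule.exists_mem_ne_zero_of_ne_bot hne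
  have hwn : ‖w‖ ≠ 0 := norm_ne_zero_iff.mpr hw0
  refine ⟨(‖w‖)⁻¹ • w, ?_, ?_, ?_⟩
  · rw [norm_smul, norm_inv, norm_norm, inv_mul_cancel₀ hwn]
  · have := (Submodule.mem_orthogonal S w).1 hw a (Submodule.subset_span (by simp))
    rw [inner_smul_right, this, mul_zero]
  · have := (Submodule.mem_orthogonal S w).1 hw b (Submodule.subset_span (by simp))
    rw [inner_smul_right, this, mul_zero]

lemma muHE_image_iso (ι : E2 →ₗᵢ[ℝ] E3) (s : Set E2) : μHE[2] (ι '' s) = volume s := by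
  rw [ι.isometry.euclideanHausdorffMeasure_image, EuclideanSpace.euclideanHausdorffMeasure_eq_volume]

lemma muHE_translate (c : E3) (s : Set E3) : μHE[2] ((fun x => c + x) '' s) = μHE[2] s := by
  rw [image_add_left, measure_preimage_add]

lemma area_pgram (c a b : E3) :
    μHE[2] (pgram c a b) = ENNReal.ofReal (Real.sqrt (gram a b)) := by
  obtain ⟨u, hu, hau, hbu⟩ := exists_unit_orthogonal a b
  obtain ⟨ι, hι⟩ := exists_planeIso u hu
  obtain ⟨a', rfl⟩ := (hι a).1 hau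
  obtain ⟨b', rfl⟩ := (hι b).1 hbu
  have h : pgram c (ι a') (ι b') = (fun x => c + x) '' (ι '' pgram 0 a' b') := by
    ext x
    simp only [pgram, mem_image, exists_exists_and_eq_and]
    constructor
    · rintro ⟨s, hs, t, ht, rfl⟩
      exact ⟨_, ⟨s, hs, t, ht, rfl⟩, by simp [add_assoc]⟩
    · rintro ⟨y, ⟨s, hs, t, ht, rfl⟩, rfl⟩
      exact ⟨s, hs, t, ht, by simp [add_assoc]⟩
  rw [h, muHE_translate, muHE_image_iso, volume_pgram, abs_det2, gram_map]

lemma area_tri (p q r : E3) :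
    μHE[2] (convexHull ℝ ({p, q, r} : Set E3)) =
      ENNReal.ofReal (Real.sqrt (gram (q - p) (r - p)) / 2) := by
  obtain ⟨u, hu, hau, hbu⟩ := exists_unit_orthogonal (q - p) (r - p)
  obtain ⟨ι, hι⟩ := exists_planeIso u hu
  obtain ⟨a', ha'⟩ := (hι (q - p)).1 hau
  obtain ⟨b', hb'⟩ := (hι (r - p)).1 hbu
  have h : convexHull ℝ ({p, q, r} : Set E3) =
      (fun x => p + x) '' (ι '' convexHull ℝ ({0, a', b'} : Set E2)) := by
    rw [convexHull_three_eq', convexHull_three_eq']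
    ext x
    simp only [mem_image, exists_exists_and_eq_and]
    constructor
    · rintro ⟨s, t, hs, ht, hst, rfl⟩
      exact ⟨_, ⟨s, t, hs, ht, hst, rfl⟩, by simp [add_assoc, ha', hb']⟩
    · rintro ⟨y, ⟨s, t, hs, ht, hst, rfl⟩, rfl⟩
      exact ⟨s, t, hs, ht, hst, by simp [add_assoc, ha', hb']⟩
  rw [h, muHE_translate, muHE_image_iso, volume_tri, sub_zero, sub_zero, abs_det2, ← ha', ← hb',
    gram_map]


/-- orthogonal projection along the (unit) vector `u` -/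
noncomputable def proj (u x : E3) : E3 := x - inner ℝ x u • u

def det3 (a b u : E3) : ℝ :=
  a 0 * (b 1 * u 2 - b 2 * u 1) - a 1 * (b 0 * u 2 - b 2 * u 0) + a 2 * (b 0 * u 1 - b 1 * u 0)

lemma norm_sq3 (a : E3) : ‖a‖ ^ 2 = a 0 ^ 2 + a 1 ^ 2 + a 2 ^ 2 := by
  simp [EuclideanSpace.norm_sq_eq, Fin.sum_univ_three]

lemma inner3 (a b : E3) : inner ℝ a b = a 0 * b 0 + a 1 * b 1 + a 2 * b 2 := by
  simp [PiLp.inner_apply, Fin.sum_univ_three]; ring

lemma gram_proj (u a b : E3) (hu : ‖u‖ = 1) : gram (proj u a) (proj u b) = det3 a b u ^ 2 := by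
  have hu' : u 0 ^ 2 + u 1 ^ 2 + u 2 ^ 2 = 1 := by rw [← norm_sq3, hu]; norm_num
  simp only [gram, proj, norm_sq3, inner3, det3, PiLp.sub_apply, PiLp.smul_apply, smul_eq_mul]
  set a0 := a 0; set a1 := a 1; set a2 := a 2
  set b0 := b 0; set b1 := b 1; set b2 := b 2
  set u0 := u 0; set u1 := u 1; set u2 := u 2
  linear_combination (-(((a0^2+a1^2+a2^2)*(b0^2+b1^2+b2^2) - (a0*b0+a1*b1+a2*b2)^2)
    - ((a0^2+a1^2+a2^2)*(b0*u0+b1*u1+b2*u2)^2 + (b0^2+b1^2+b2^2)*(a0*u0+a1*u1+a2*u2)^2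
      - 2*(a0*b0+a1*b1+a2*b2)*(a0*u0+a1*u1+a2*u2)*(b0*u0+b1*u1+b2*u2)))) * hu'



lemma muH_toReal : ∃ κ : ℝ, 0 < κ ∧ ∀ s : Set E3, (μH[(2:ℝ)] s).toReal = κ * (μHE[2] s).toReal := by
  set c := Measure.addHaarScalarFactor (volume : Measure (EuclideanSpace ℝ (Fin 2))) μH[((2:ℕ):ℝ)] with hc
  have hc0 : c ≠ 0 := Measure.addHaarScalarFactor_volume_hausdorffMeasure_ne_zero 2
  refine ⟨(c : ℝ)⁻¹, by positivity, ?_⟩
  intro s
  have h : μHE[2] s = c • μH[(2:ℝ)] s := by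
    rw [Measure.euclideanHausdorffMeasure_def, Measure.smul_apply, hc]
    norm_num
  rw [h, ENNReal.smul_def, smul_eq_mul, ENNReal.toReal_mul]
  have : (c : ℝ) ≠ 0 := by exact_mod_cast hc0
  simp
  field_simp

lemma adjoint_iso_apply (ι : E2 →ₗᵢ[ℝ] E3) (y : E2) :
    ContinuousLinearMap.adjoint ι.toContinuousLinearMap (ι y) = y := by
  apply ext_inner_right ℝ
  intro z
  rw [ContinuousLinearMap.adjoint_inner_left]
  simp

lemma exists_relOpen_superset (u : E3) (hu : ‖u‖ = 1) (P : Set E3)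
    (hP : ∀ x ∈ P, inner ℝ x u = 0) (hb : Bornology.IsBounded P) (η : ℝ) (hη : 0 < η) :
    ∃ B : Set E3, Bornology.IsBounded B ∧
      (∃ O : Set E3, IsOpen O ∧ B = O ∩ {x | inner ℝ x u = 0}) ∧ P ⊆ B ∧
      μHE[2] B ≤ μHE[2] P + ENNReal.ofReal η := by
  obtain ⟨ι, hι⟩ := exists_planeIso u hu
  set P₂ : Set E2 := ι ⁻¹' P with hP₂
  have hPimg : ι '' P₂ = P := by
    rw [hP₂, image_preimage_eq_iff]
    intro x hx
    exact (hι x).1 (hP x hx)
  obtain ⟨G, hPG, hGo, hGv⟩ := P₂.exists_isOpen_le_add volume (ε := ENNReal.ofReal η)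
    (by simpa using hη)
  obtain ⟨R, hR⟩ := hb.subset_ball 0
  set G' : Set E2 := G ∩ Metric.ball 0 R with hG'
  have hG'o : IsOpen G' := hGo.inter Metric.isOpen_ball
  have hPG' : P₂ ⊆ G' := by
    intro y hy
    refine ⟨hPG hy, ?_⟩
    have := hR hy
    simpa using this
  refine ⟨ι '' G', ?_, ⟨(ContinuousLinearMap.adjoint ι.toContinuousLinearMap) ⁻¹' G',
    hG'o.preimage (ContinuousLinearMap.continuous _), ?_⟩, ?_, ?_⟩
  · apply (Metric.isBounded_ball (x := (0:E3)) (r := R)).subset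
    rintro _ ⟨y, hy, rfl⟩
    have := hy.2
    simpa using this
  · ext x
    constructor
    · rintro ⟨y, hy, rfl⟩
      refine ⟨?_, (hι _).2 ⟨y, rfl⟩⟩
      show ContinuousLinearMap.adjoint ι.toContinuousLinearMap (ι y) ∈ G'
      rw [adjoint_iso_apply]; exact hy
    · rintro ⟨hx1, hx2⟩
      obtain ⟨y, rfl⟩ := (hι x).1 hx2
      refine ⟨y, ?_, rfl⟩
      have : ContinuousLinearMap.adjoint ι.toContinuousLinearMap (ι y) ∈ G' := hx1
      rwa [adjoint_iso_apply] at this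
  · rw [← hPimg]; exact image_mono hPG'
  · rw [muHE_image_iso, ← hPimg, muHE_image_iso]
    exact (measure_mono inter_subset_left).trans hGv


end Crest.Agent.Cyl
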