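import Crest.Agent.Lib_Cyl.Area3

/-!
Cylinders over projected triangles / parallelograms.
-/

set_option autoImplicit false
open MeasureTheory Set

namespace Crest.Agent.Cyl

/-- projection along a nonzero vector `d` (not necessarily unit) onto `d^⊥` -/
noncomputable def projD (d x : E3) : E3 := x - (inner ℝ x d / ‖d‖ ^ 2) • d

lemma projD_eq_proj (d x : E3) (hd : d ≠ 0) : projD d x = proj ((‖d‖)⁻¹ • d) x := by
  have hn : ‖d‖ ≠ 0 := norm_ne_zero_iff.mpr hd
  simp only [projD, proj, inner_smul_right, smul_smul]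
  congr 2
  field_simp

lemma proj_eq_projD (u x : E3) (hu : ‖u‖ = 1) : proj u x = projD u x := by
  simp [projD, proj, hu]

lemma norm_inv_smul (d : E3) (hd : d ≠ 0) : ‖(‖d‖)⁻¹ • d‖ = 1 := by
  have hn : ‖d‖ ≠ 0 := norm_ne_zero_iff.mpr hd
  rw [norm_smul, norm_inv, norm_norm, inv_mul_cancel₀ hn]

lemma inner_projD (d x : E3) (hd : d ≠ 0) : inner ℝ (projD d x) d = 0 := by
  have hn : ‖d‖ ^ 2 ≠ 0 := pow_ne_zero 2 (norm_ne_zero_iff.mpr hd)
  rw [projD, inner_sub_left, inner_smul_left, real_inner_self_eq_norm_sq]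
  simp
  field_simp
  ring

lemma inner_proj (u x : E3) (hu : ‖u‖ = 1) : inner ℝ (proj u x) u = 0 := by
  rw [proj_eq_projD u x hu]
  exact inner_projD u x (by intro h; rw [h] at hu; simp at hu)

lemma projD_add (d x y : E3) : projD d (x + y) = projD d x + projD d y := by
  simp only [projD, inner_add_left, add_div, add_smul]; abel

lemma projD_sub (d x y : E3) : projD d (x - y) = projD d x - projD d y := by
  simp only [projD, inner_sub_left, sub_div, sub_smul]; abel

lemma projD_smul (d : E3) (c : ℝ) (x : E3) : projD d (c • x) = c • projD d x := by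
  simp only [projD, inner_smul_left, smul_sub, smul_smul]
  congr 2
  simp; ring

lemma projD_self (d : E3) (hd : d ≠ 0) : projD d d = 0 := by
  have hn : ‖d‖ ^ 2 ≠ 0 := pow_ne_zero 2 (norm_ne_zero_iff.mpr hd)
  rw [projD, real_inner_self_eq_norm_sq, div_self hn, one_smul, sub_self]

/-- `projD d` as a linear map -/
noncomputable def projDL (d : E3) : E3 →ₗ[ℝ] E3 where
  toFun := projD d
  map_add' := projD_add d
  map_smul' := by intro c x; simpa using projD_smul d c x

@[simp] lemma projDL_apply (d x : E3) : projDL d x = projD d x := rfl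

lemma det3_smul_right (a b u : E3) (c : ℝ) : det3 a b (c • u) = c * det3 a b u := by
  simp [det3]; ring

lemma gram_projD (d a b : E3) (hd : d ≠ 0) :
    gram (projD d a) (projD d b) = det3 a b d ^ 2 / ‖d‖ ^ 2 := by
  rw [projD_eq_proj d a hd, projD_eq_proj d b hd, gram_proj _ _ _ (norm_inv_smul d hd),
    det3_smul_right]
  field_simp

lemma sqrt_gram_projD (d a b : E3) (hd : d ≠ 0) :
    Real.sqrt (gram (projD d a) (projD d b)) = |det3 a b d| / ‖d‖ := by
  rw [gram_projD d a b hd, ← div_pow, Real.sqrt_sq_eq_abs, abs_div, abs_norm]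

/-- area of the projection of a triangle -/
lemma area_tri_projD (d P Q R : E3) (hd : d ≠ 0) :
    μHE[2] (convexHull ℝ ({projD d P, projD d Q, projD d R} : Set E3)) =
      ENNReal.ofReal (|det3 (Q - P) (R - P) d| / (2 * ‖d‖)) := by
  rw [area_tri, ← projD_sub, ← projD_sub, sqrt_gram_projD _ _ _ hd]
  congr 1
  rw [div_div, mul_comm]

/-- area of the projection of a parallelogram -/
lemma area_pgram_projD (d c a b : E3) (hd : d ≠ 0) :
    μHE[2] (pgram (projD d c) (projD d a) (projD d b)) =
      ENNReal.ofReal (|det3 a b d| / ‖d‖) := by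
  rw [area_pgram, sqrt_gram_projD _ _ _ hd]

lemma image_projD_convexHull (d : E3) (s : Set E3) :
    projD d '' convexHull ℝ s = convexHull ℝ (projD d '' s) :=
  (projDL d).image_convexHull s

lemma projD_mem_hull (d P Q R g : E3) (hg : g ∈ convexHull ℝ ({P, Q, R} : Set E3)) :
    projD d g ∈ convexHull ℝ ({projD d P, projD d Q, projD d R} : Set E3) := by
  have h := mem_image_of_mem (projD d) hg
  rw [image_projD_convexHull] at h
  simpa [image_insert_eq] using h

/-- the (bi-infinite) cylinder with base `B` and axis `d` -/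
def cyl (B : Set E3) (d : E3) : Set E3 := {x | ∃ y ∈ B, ∃ σ : ℝ, x = y + σ • d}

lemma mem_cyl_of_projD_mem (B : Set E3) (d x : E3) (h : projD d x ∈ B) : x ∈ cyl B d :=
  ⟨projD d x, h, inner ℝ x d / ‖d‖ ^ 2, by simp [projD]⟩

lemma projD_add_smul (d g : E3) (s : ℝ) (hd : d ≠ 0) : projD d (g + s • d) = projD d g := by
  rw [projD_add, projD_smul, projD_self d hd, smul_zero, add_zero]

lemma cyl_smul (B : Set E3) (d : E3) (c : ℝ) (hc : c ≠ 0) : cyl B (c • d) = cyl B d := by
  ext x
  constructor
  · rintro ⟨y, hy, σ, rfl⟩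
    exact ⟨y, hy, σ * c, by rw [smul_smul]⟩
  · rintro ⟨y, hy, σ, rfl⟩
    exact ⟨y, hy, σ / c, by rw [smul_smul]; congr 2; field_simp⟩

/-- if `g` lies in the triangle `PQR` then `g + s d` lies in the cylinder over the projected
triangle -/
lemma mem_cyl_tri (d P Q R g : E3) (s : ℝ) (hd : d ≠ 0)
    (hg : g ∈ convexHull ℝ ({P, Q, R} : Set E3)) :
    g + s • d ∈ cyl (convexHull ℝ ({projD d P, projD d Q, projD d R} : Set E3)) d := by
  apply mem_cyl_of_projD_mem
  rw [projD_add_smul d g s hd]
  exact projD_mem_hull d P Q R g hg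

lemma linearIndependent_of_gram_ne_zero {E : Type*} [NormedAddCommGroup E] [InnerProductSpace ℝ E]
    (x y : E) (h : gram x y ≠ 0) : LinearIndependent ℝ ![x, y] := by
  rw [LinearIndependent.pair_iff]
  intro s t hst
  have h1 : s * ‖x‖ ^ 2 + t * inner ℝ x y = 0 := by
    have := congrArg (fun z => inner ℝ x z) hst
    simp only [inner_add_right, inner_smul_right, inner_zero_right,
      real_inner_self_eq_norm_sq] at this
    linarith
  have h2 : s * inner ℝ x y + t * ‖y‖ ^ 2 = 0 := by
    have := congrArg (fun z => inner ℝ z y) hst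
    simp only [inner_add_left, inner_smul_left, inner_zero_left,
      real_inner_self_eq_norm_sq] at this
    simpa using this
  have hs : s * gram x y = 0 := by
    unfold gram
    linear_combination ‖y‖ ^ 2 * h1 - inner ℝ x y * h2
  have ht : t * gram x y = 0 := by
    unfold gram
    linear_combination ‖x‖ ^ 2 * h2 - inner ℝ x y * h1
  exact ⟨(mul_eq_zero.mp hs).resolve_right h, (mul_eq_zero.mp ht).resolve_right h⟩

lemma affineIndependent_of_gram_ne_zero {E : Type*} [NormedAddCommGroup E]
    [InnerProductSpace ℝ E] (p q r : E) (h : gram (q - p) (r - p) ≠ 0) :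
    AffineIndependent ℝ ![p, q, r] := by
  rw [affineIndependent_iff_linearIndependent_vsub ℝ _ (0 : Fin 3)]
  have hli := linearIndependent_of_gram_ne_zero _ _ h
  let e : {x : Fin 3 // x ≠ 0} → Fin 2 := fun x => ⟨x.1.1 - 1, by have := x.1.2; omega⟩
  have he : Function.Injective e := by
    rintro ⟨x, hx⟩ ⟨y, hy⟩ hxy
    have hx' : x.1 ≠ 0 := fun h => hx (Fin.ext h)
    have hy' : y.1 ≠ 0 := fun h => hy (Fin.ext h)
    have h1 : x.1 - 1 = y.1 - 1 := congrArg Fin.val hxy
    apply Subtype.ext
    apply Fin.ext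
    show x.1 = y.1
    omega
  have hfun : (fun i : {x : Fin 3 // x ≠ 0} => (![p, q, r] i -ᵥ ![p, q, r] 0 : E))
      = ![q - p, r - p] ∘ e := by
    funext ⟨x, hx⟩
    fin_cases x
    · exact absurd rfl hx
    · rfl
    · rfl
  rw [hfun]
  exact hli.comp e he

end Crest.Agent.Cyl
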