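import Crest.Agent.Lib_Cyl.Cyl

/-!
One thin triangle of a radial sweep.
-/

set_option autoImplicit false
open MeasureTheory Set

namespace Crest.Agent.Cyl

/-- apex of the thin triangle (pushed back by `2h`) -/
noncomputable def triP (a b p₀ : E3) (t0 t1 h : ℝ) : E3 := p₀ - (2 * h) • (a + ((t0 + t1) / 2) • b)
noncomputable def triQ (a b p₀ : E3) (t0 t1 h H : ℝ) : E3 := triP a b p₀ t0 t1 h + H • (a + t0 • b)
noncomputable def triR (a b p₀ : E3) (t0 t1 h H : ℝ) : E3 := triP a b p₀ t0 t1 h + H • (a + t1 • b)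

lemma piece_mem (a b p₀ : E3) (t0 t1 h H ρ τ sA sB : ℝ) (h01 : t0 < t1) (hH : 0 < H)
    (hρ : 0 ≤ ρ) (hτ0 : t0 ≤ τ) (hτ1 : τ ≤ t1)
    (h1 : |sA| ≤ h) (h2 : |sB - t0 * sA| ≤ h * (t1 - t0)) (h3 : |t1 * sA - sB| ≤ h * (t1 - t0))
    (h4 : ρ + 3 * h ≤ H) :
    p₀ + ρ • (a + τ • b) + (sA • a + sB • b) ∈
      convexHull ℝ ({triP a b p₀ t0 t1 h, triQ a b p₀ t0 t1 h H, triR a b p₀ t0 t1 h H} : Set E3) := by
  rw [convexHull_three_eq']
  set Δ := t1 - t0 with hΔ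
  have hΔpos : 0 < Δ := by rw [hΔ]; linarith
  set μ := ρ + sA + 2 * h with hμ
  set ν := ρ * τ + sB + 2 * h * ((t0 + t1) / 2) with hν
  have hHΔ : H * Δ ≠ 0 := (mul_pos hH hΔpos).ne'
  have e1 : 0 ≤ t1 * μ - ν := by
    have : t1 * μ - ν = ρ * (t1 - τ) + (t1 * sA - sB) + h * Δ := by rw [hμ, hν, hΔ]; ring
    rw [this]
    have := (abs_le.mp h3).1
    have h5 : 0 ≤ ρ * (t1 - τ) := mul_nonneg hρ (by linarith)
    linarith
  have e2 : 0 ≤ ν - t0 * μ := by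
    have : ν - t0 * μ = ρ * (τ - t0) + (sB - t0 * sA) + h * Δ := by rw [hμ, hν, hΔ]; ring
    rw [this]
    have := (abs_le.mp h2).1
    have h5 : 0 ≤ ρ * (τ - t0) := mul_nonneg hρ (by linarith)
    linarith
  have e3 : μ ≤ H := by
    have := (abs_le.mp h1).2
    rw [hμ]; linarith
  refine ⟨(t1 * μ - ν) / (H * Δ), (ν - t0 * μ) / (H * Δ), by positivity, by positivity, ?_, ?_⟩
  · rw [← add_div, div_le_one (mul_pos hH hΔpos)]
    have : t1 * μ - ν + (ν - t0 * μ) = μ * Δ := by rw [hΔ]; ring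
    rw [this]
    exact mul_le_mul_of_nonneg_right e3 hΔpos.le
  · have hQ : triQ a b p₀ t0 t1 h H - triP a b p₀ t0 t1 h = H • (a + t0 • b) := by
      simp [triQ]
    have hR : triR a b p₀ t0 t1 h H - triP a b p₀ t0 t1 h = H • (a + t1 • b) := by
      simp [triR]
    rw [hQ, hR]
    have c1 : (t1 * μ - ν) / (H * Δ) * H + (ν - t0 * μ) / (H * Δ) * H = μ := by
      field_simp
      rw [hΔ]; ring
    have c2 : (t1 * μ - ν) / (H * Δ) * H * t0 + (ν - t0 * μ) / (H * Δ) * H * t1 = ν := by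
      field_simp
      rw [hΔ]; ring
    generalize (t1 * μ - ν) / (H * Δ) = l1 at c1 c2 ⊢
    generalize (ν - t0 * μ) / (H * Δ) = l2 at c1 c2 ⊢
    have key : l1 • H • (a + t0 • b) + l2 • H • (a + t1 • b)
        = (l1 * H + l2 * H) • a + (l1 * H * t0 + l2 * H * t1) • b := by
      module
    rw [add_assoc (triP a b p₀ t0 t1 h), key, c1, c2, triP, hμ, hν]
    module

lemma det3_perp_eq_zero (e a b w : E3) (he : ‖e‖ = 1) (ha : inner ℝ a e = 0)
    (hb : inner ℝ b e = 0) (hw : inner ℝ w e = 0) : det3 a b w = 0 := by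
  have he' : e 0 ^ 2 + e 1 ^ 2 + e 2 ^ 2 = 1 := by rw [← norm_sq3, he]; norm_num
  rw [inner3] at ha hb hw
  have key : (e 0 ^ 2 + e 1 ^ 2 + e 2 ^ 2) * det3 a b w = 0 := by
    simp only [det3]
    linear_combination (e 0 * (b 1 * w 2 - b 2 * w 1) - e 1 * (b 0 * w 2 - b 2 * w 0)
        + e 2 * (b 0 * w 1 - b 1 * w 0)) * ha
      - (e 0 * (a 1 * w 2 - a 2 * w 1) - e 1 * (a 0 * w 2 - a 2 * w 0)
        + e 2 * (a 0 * w 1 - a 1 * w 0)) * hb
      + (e 0 * (a 1 * b 2 - a 2 * b 1) - e 1 * (a 0 * b 2 - a 2 * b 0)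
        + e 2 * (a 0 * b 1 - a 1 * b 0)) * hw
  rw [he', one_mul] at key
  exact key

lemma det3_add_right (a b u v : E3) : det3 a b (u + v) = det3 a b u + det3 a b v := by
  simp [det3]; ring

lemma proj_eq_self (e a : E3) (ha : inner ℝ a e = 0) : proj e a = a := by
  simp [proj, ha]

lemma det3_sq_eq_gram (e a b : E3) (he : ‖e‖ = 1) (ha : inner ℝ a e = 0)
    (hb : inner ℝ b e = 0) : det3 a b e ^ 2 = gram a b := by
  rw [← gram_proj e a b he, proj_eq_self e a ha, proj_eq_self e b hb]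

lemma abs_det3_eq (e a b : E3) (he : ‖e‖ = 1) (ha : inner ℝ a e = 0)
    (hb : inner ℝ b e = 0) : |det3 a b e| = Real.sqrt (gram a b) := by
  rw [← det3_sq_eq_gram e a b he ha hb, Real.sqrt_sq_eq_abs]

lemma norm_add_perp (e w : E3) (he : ‖e‖ = 1) (hw : inner ℝ w e = 0) :
    ‖e + w‖ = Real.sqrt (1 + ‖w‖ ^ 2) := by
  have h : ‖e + w‖ ^ 2 = 1 + ‖w‖ ^ 2 := by
    rw [norm_add_sq_real, he, real_inner_comm, hw]; ring
  rw [← h, Real.sqrt_sq (norm_nonneg _)]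

lemma add_perp_ne_zero (e w : E3) (he : ‖e‖ = 1) (hw : inner ℝ w e = 0) : e + w ≠ 0 := by
  intro h
  have := norm_add_perp e w he hw
  rw [h, norm_zero] at this
  have h2 : 0 < Real.sqrt (1 + ‖w‖ ^ 2) := Real.sqrt_pos.mpr (by positivity)
  linarith

lemma piece_det (a b p₀ d : E3) (t0 t1 h H : ℝ) :
    det3 (triQ a b p₀ t0 t1 h H - triP a b p₀ t0 t1 h) (triR a b p₀ t0 t1 h H - triP a b p₀ t0 t1 h) d
      = H ^ 2 * (t1 - t0) * det3 a b d := by
  have hQ : triQ a b p₀ t0 t1 h H - triP a b p₀ t0 t1 h = H • (a + t0 • b) := by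
    simp [triQ]
  have hR : triR a b p₀ t0 t1 h H - triP a b p₀ t0 t1 h = H • (a + t1 • b) := by
    simp [triR]
  rw [hQ, hR]
  simp [det3]; ring

lemma piece_area (e a b p₀ wc : E3) (he : ‖e‖ = 1) (ha : inner ℝ a e = 0) (hb : inner ℝ b e = 0)
    (hwc : inner ℝ wc e = 0) (t0 t1 h H : ℝ) (h01 : t0 ≤ t1) :
    μHE[2] (convexHull ℝ ({projD (e + wc) (triP a b p₀ t0 t1 h),
        projD (e + wc) (triQ a b p₀ t0 t1 h H), projD (e + wc) (triR a b p₀ t0 t1 h H)} : Set E3)) =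
      ENNReal.ofReal (Real.sqrt (gram a b) * H ^ 2 * (t1 - t0) / (2 * Real.sqrt (1 + ‖wc‖ ^ 2))) := by
  rw [area_tri_projD _ _ _ _ (add_perp_ne_zero e wc he hwc), piece_det, det3_add_right,
    det3_perp_eq_zero e a b wc he ha hb hwc, add_zero, abs_mul, abs_det3_eq e a b he ha hb,
    norm_add_perp e wc he hwc, abs_of_nonneg (mul_nonneg (sq_nonneg H) (by linarith))]
  congr 1
  ring

end Crest.Agent.Cyl
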