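import Crest.Agent.Lib_Cyl.TetraSweep

/-!
The cover of the standard regular tetrahedron by two radial sweep families.
-/

set_option autoImplicit false
open MeasureTheory Set

namespace Crest.Agent.Cyl

/-- coordinates of the points of the standard tetrahedron -/
lemma K0_coords (X : E3)
    (hX : X ∈ convexHull ℝ ({!₂[1, 0, 0], !₂[-1, 0, 0], !₂[0, 1, Real.sqrt 2],
      !₂[0, -1, Real.sqrt 2]} : Set E3)) :
    ∃ s : ℝ, X 2 = Real.sqrt 2 * s ∧ |X 0| ≤ 1 - s ∧ |X 1| ≤ s := by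
  have hconv : Convex ℝ {X : E3 | ∃ s : ℝ, X 2 = Real.sqrt 2 * s ∧ |X 0| ≤ 1 - s ∧ |X 1| ≤ s} := by
    rintro X ⟨s, h1, h2, h3⟩ Y ⟨s', h1', h2', h3'⟩ α β hα hβ hαβ
    obtain ⟨a1, a2⟩ := abs_le.mp h2
    obtain ⟨a3, a4⟩ := abs_le.mp h3
    obtain ⟨b1, b2⟩ := abs_le.mp h2'
    obtain ⟨b3, b4⟩ := abs_le.mp h3'
    refine ⟨α * s + β * s', ?_, ?_, ?_⟩
    · simp only [PiLp.add_apply, PiLp.smul_apply, smul_eq_mul, h1, h1']; ring
    · simp only [PiLp.add_apply, PiLp.smul_apply, smul_eq_mul]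
      rw [abs_le]
      constructor <;> nlinarith
    · simp only [PiLp.add_apply, PiLp.smul_apply, smul_eq_mul]
      rw [abs_le]
      constructor <;> nlinarith
  refine convexHull_min ?_ hconv hX
  intro Y hY
  simp only [mem_insert_iff, mem_singleton_iff] at hY
  rcases hY with rfl | rfl | rfl | rfl
  · exact ⟨0, by simp, by simp, by simp⟩
  · exact ⟨0, by simp, by simp, by simp⟩
  · exact ⟨1, by simp, by simp, by simp⟩
  · exact ⟨1, by simp, by simp, by simp⟩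

/-! ### the two frames -/

noncomputable def e1 : E3 := !₂[1, 0, 0]
noncomputable def a1 : E3 := !₂[0, 0, Real.sqrt 2]
noncomputable def b1 : E3 := !₂[0, 1, 0]
noncomputable def e2 : E3 := !₂[0, 1, 0]
noncomputable def a2 : E3 := !₂[0, 0, -Real.sqrt 2]
noncomputable def b2 : E3 := !₂[-1, 0, 0]
noncomputable def o2 : E3 := !₂[0, 0, Real.sqrt 2]

lemma norm_eq_one_of_sq (v : E3) (h : ‖v‖ ^ 2 = 1) : ‖v‖ = 1 := by
  have h0 : 0 ≤ ‖v‖ := norm_nonneg _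
  nlinarith

lemma e1_norm : ‖e1‖ = 1 := norm_eq_one_of_sq _ (by rw [norm_sq3]; simp [e1])
lemma e2_norm : ‖e2‖ = 1 := norm_eq_one_of_sq _ (by rw [norm_sq3]; simp [e2])
lemma a1_e1 : inner ℝ a1 e1 = 0 := by rw [inner3]; simp [a1, e1]
lemma b1_e1 : inner ℝ b1 e1 = 0 := by rw [inner3]; simp [b1, e1]
lemma a2_e2 : inner ℝ a2 e2 = 0 := by rw [inner3]; simp [a2, e2]
lemma b2_e2 : inner ℝ b2 e2 = 0 := by rw [inner3]; simp [b2, e2]
lemma a1_b1 : inner ℝ a1 b1 = 0 := by rw [inner3]; simp [a1, b1]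
lemma a2_b2 : inner ℝ a2 b2 = 0 := by rw [inner3]; simp [a2, b2]
lemma a1_norm : ‖a1‖ ^ 2 = 2 := by rw [norm_sq3]; simp [a1]
lemma a2_norm : ‖a2‖ ^ 2 = 2 := by rw [norm_sq3]; simp [a2]
lemma b1_norm : ‖b1‖ ^ 2 = 1 := by rw [norm_sq3]; simp [b1]
lemma b2_norm : ‖b2‖ ^ 2 = 1 := by rw [norm_sq3]; simp [b2]

lemma param1 (X : E3) (s t ρ : ℝ) (h2 : X 2 = Real.sqrt 2 * s)
    (hs : s = ρ + eps * X 0 * t) (hy : X 1 = ρ * t + eps * X 0 * (t ^ 2 + 1) / 2) :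
    X = 0 + ρ • (a1 + t • b1) + X 0 • dv e1 a1 b1 t := by
  ext i
  fin_cases i
  · simp [dv, Wv, e1, a1, b1]
  · simp [dv, Wv, e1, a1, b1]
    rw [hy]; ring
  · simp [dv, Wv, e1, a1, b1]
    rw [h2, hs]; ring

lemma param2 (X : E3) (s T P : ℝ) (h2 : X 2 = Real.sqrt 2 * s)
    (hs : 1 - s = P + eps * X 1 * T) (hx : -X 0 = P * T + eps * X 1 * (T ^ 2 + 1) / 2) :
    X = o2 + P • (a2 + T • b2) + X 1 • dv e2 a2 b2 T := by
  have hs' : s = 1 - (P + eps * X 1 * T) := by linarith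
  have hx' : X 0 = -(P * T + eps * X 1 * (T ^ 2 + 1) / 2) := by linarith
  ext i
  fin_cases i
  · simp [dv, Wv, e2, a2, b2, o2]
    rw [hx']; ring
  · simp [dv, Wv, e2, a2, b2, o2]
  · simp [dv, Wv, e2, a2, b2, o2]
    rw [h2, hs']; ring

/-- every point of the tetrahedron is caught by one of the two families -/
lemma K0_caught (X : E3)
    (hX : X ∈ convexHull ℝ ({!₂[1, 0, 0], !₂[-1, 0, 0], !₂[0, 1, Real.sqrt 2],
      !₂[0, -1, Real.sqrt 2]} : Set E3)) :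
    (∃ i : ℕ, i < NN ∧ X ∈ {x : E3 | ∃ y ∈ convexHull ℝ ({famP e1 a1 b1 0 i, famQ e1 a1 b1 0 i,
        famR e1 a1 b1 0 i} : Set E3), ∃ s : ℝ, x = y + s • famU e1 a1 b1 i}) ∨
    (∃ i : ℕ, i < NN ∧ X ∈ {x : E3 | ∃ y ∈ convexHull ℝ ({famP e2 a2 b2 o2 i, famQ e2 a2 b2 o2 i,
        famR e2 a2 b2 o2 i} : Set E3), ∃ s : ℝ, x = y + s • famU e2 a2 b2 i}) := by
  obtain ⟨s, h2, hx, hy⟩ := K0_coords X hX
  have hs0 : 0 ≤ s := (abs_nonneg _).trans hy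
  have hs1 : s ≤ 1 := by linarith [abs_nonneg (X 0)]
  obtain ⟨t, ρ, ht1, ht2, hρ0, e1', e2'⟩ := sweep_root (eps * X 0) (X 1) s hy
  obtain ⟨T, P, hT1, hT2, hP0, e3', e4'⟩ := sweep_root (eps * X 1) (-X 0) (1 - s)
    (by rw [abs_neg]; exact hx)
  have hor := interface_or eps c2 (X 0) (X 1) s t ρ T P eps_pos.le (by simp only [eps]; norm_num)
    (by simp only [c2]; norm_num) (by simp only [eps, c2]; norm_num) ht1 ht2 hT1 hT2 e1' e2' e3' e4'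
  rcases hor with h | h
  · left
    have := fam_cover e1 a1 b1 0 e1_norm a1_e1 b1_e1 t ρ (X 0) ht1 ht2 hρ0 h (by linarith)
    rw [← param1 X s t ρ h2 e1' e2'] at this
    exact this
  · right
    have := fam_cover e2 a2 b2 o2 e2_norm a2_e2 b2_e2 T P (X 1) hT1 hT2 hP0 h (by linarith)
    rw [← param2 X s T P h2 e3' e4'] at this
    exact this

/-- reindexing a finite family by `Fin` -/
lemma reindex_cover {ι : Type} [Fintype ι] (K : Set E3) (A : ℝ) (u p q r : ι → E3)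
    (hu : ∀ i, ‖u i‖ = 1)
    (ho : ∀ i, inner ℝ (p i) (u i) = 0 ∧ inner ℝ (q i) (u i) = 0 ∧ inner ℝ (r i) (u i) = 0)
    (hc : K ⊆ ⋃ i, {x : E3 | ∃ b ∈ convexHull ℝ {p i, q i, r i}, ∃ t : ℝ, x = b + t • u i})
    (hA : ∑ i, (μHE[2] (convexHull ℝ ({p i, q i, r i} : Set E3))).toReal ≤ A) :
    ∃ u' p' q' r' : Fin (Fintype.card ι) → E3, (∀ i, ‖u' i‖ = 1) ∧
      (∀ i, inner ℝ (p' i) (u' i) = 0 ∧ inner ℝ (q' i) (u' i) = 0 ∧ inner ℝ (r' i) (u' i) = 0) ∧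
      K ⊆ ⋃ i, {x : E3 | ∃ b ∈ convexHull ℝ {p' i, q' i, r' i}, ∃ t : ℝ, x = b + t • u' i} ∧
      ∑ i, (μHE[2] (convexHull ℝ ({p' i, q' i, r' i} : Set E3))).toReal ≤ A := by
  let e : Fin (Fintype.card ι) ≃ ι := (Fintype.equivFin ι).symm
  refine ⟨u ∘ e, p ∘ e, q ∘ e, r ∘ e, fun i => hu _, fun i => ho _, ?_, ?_⟩
  · intro x hx
    obtain ⟨i, hi⟩ := mem_iUnion.mp (hc hx)
    refine mem_iUnion.mpr ⟨e.symm i, ?_⟩
    simpa using hi
  · have := Equiv.sum_comp e (fun i => (μHE[2] (convexHull ℝ ({p i, q i, r i} : Set E3))).toReal)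
    simp only [Function.comp]
    rw [this]
    exact hA

theorem main_cover : ∃ m ≤ 15999999, ∃ u p q r : Fin m → E3, (∀ i, ‖u i‖ = 1) ∧
    (∀ i, inner ℝ (p i) (u i) = 0 ∧ inner ℝ (q i) (u i) = 0 ∧ inner ℝ (r i) (u i) = 0) ∧
    convexHull ℝ ({!₂[1, 0, 0], !₂[-1, 0, 0], !₂[0, 1, Real.sqrt 2],
      !₂[0, -1, Real.sqrt 2]} : Set E3) ⊆
      ⋃ i, {x : E3 | ∃ b ∈ convexHull ℝ {p i, q i, r i}, ∃ t : ℝ, x = b + t • u i} ∧
    ∑ i, (μHE[2] (convexHull ℝ ({p i, q i, r i} : Set E3))).toReal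
      ≤ Real.sqrt 2 * (1 / 2 - 1 / 10 ^ 7) := by
  refine ⟨Fintype.card (Fin NN ⊕ Fin NN), by
    rw [Fintype.card_sum, Fintype.card_fin]; simp only [NN]; norm_num, ?_⟩
  apply reindex_cover _ _
    (Sum.elim (fun i : Fin NN => famU e1 a1 b1 i) (fun i : Fin NN => famU e2 a2 b2 i))
    (Sum.elim (fun i : Fin NN => famP e1 a1 b1 0 i) (fun i : Fin NN => famP e2 a2 b2 o2 i))
    (Sum.elim (fun i : Fin NN => famQ e1 a1 b1 0 i) (fun i : Fin NN => famQ e2 a2 b2 o2 i))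
    (Sum.elim (fun i : Fin NN => famR e1 a1 b1 0 i) (fun i : Fin NN => famR e2 a2 b2 o2 i))
  · rintro (i | i)
    · exact famU_norm e1 a1 b1 e1_norm a1_e1 b1_e1 i
    · exact famU_norm e2 a2 b2 e2_norm a2_e2 b2_e2 i
  · rintro (i | i)
    · exact fam_perp e1 a1 b1 0 e1_norm a1_e1 b1_e1 i
    · exact fam_perp e2 a2 b2 o2 e2_norm a2_e2 b2_e2 i
  · intro X hX
    rcases K0_caught X hX with ⟨i, hi, h⟩ | ⟨i, hi, h⟩
    · exact mem_iUnion.mpr ⟨Sum.inl ⟨i, hi⟩, h⟩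
    · exact mem_iUnion.mpr ⟨Sum.inr ⟨i, hi⟩, h⟩
  · rw [Fintype.sum_sum_type]
    simp only [Sum.elim_inl, Sum.elim_inr]
    have h1 := fam_total e1 a1 b1 0 e1_norm a1_e1 b1_e1 a1_norm b1_norm a1_b1
    have h2 := fam_total e2 a2 b2 o2 e2_norm a2_e2 b2_e2 a2_norm b2_norm a2_b2
    have hs : 0 < Real.sqrt 2 := Real.sqrt_pos.mpr (by norm_num)
    nlinarith

end Crest.Agent.Cyl
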