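import Mathlib

/-!
Numerical estimates for the tetrahedron cover.
-/

set_option autoImplicit false
open Finset

namespace Crest.Agent.Cyl

/-- `1/√(1+u) ≤ 1 - u/2 + u²/2` on `[0,1]` -/
lemma inv_sqrt_le (u : ℝ) (hu0 : 0 ≤ u) (hu1 : u ≤ 1) :
    1 / Real.sqrt (1 + u) ≤ 1 - u / 2 + u ^ 2 / 2 := by
  have hpos : 0 < 1 + u := by linarith
  have hs : 0 < Real.sqrt (1 + u) := Real.sqrt_pos.mpr hpos
  set q := 1 - u / 2 + u ^ 2 / 2 with hq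
  have hq0 : 0 < q := by rw [hq]; nlinarith
  rw [div_le_iff₀ hs]
  have h1 : 1 ≤ q ^ 2 * (1 + u) := by
    have : q ^ 2 * (1 + u) - 1 = u ^ 2 / 4 + 3 * u ^ 3 / 4 - u ^ 4 / 4 + u ^ 5 / 4 := by
      rw [hq]; ring
    have h3 : u ^ 4 ≤ u ^ 3 := by
      have : u ^ 4 = u ^ 3 * u := by ring
      rw [this]
      have h30 : 0 ≤ u ^ 3 := by positivity
      nlinarith
    have h5 : 0 ≤ u ^ 5 := by positivity
    have h2 : 0 ≤ u ^ 2 := by positivity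
    have h33 : 0 ≤ u ^ 3 := by positivity
    linarith
  have h2 : (1:ℝ) ≤ (q * Real.sqrt (1 + u)) ^ 2 := by
    rw [mul_pow, Real.sq_sqrt hpos.le]; exact h1
  have h3 : 0 ≤ q * Real.sqrt (1 + u) := by positivity
  nlinarith

/-! ### the constants -/

noncomputable def eps : ℝ := 1 / 50
noncomputable def c2 : ℝ := 101 / 100
noncomputable def Dl : ℝ := 1 / 2000000
def NN : ℕ := 4000000

noncomputable def Rfun (t : ℝ) : ℝ := 1 / 2 + eps ^ 2 * c2 * (t ^ 4 + t ^ 2) / 4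
noncomputable def Hfun (c : ℝ) : ℝ := Rfun c + 4 * eps * Dl
noncomputable def usq (c : ℝ) : ℝ := eps ^ 2 * (2 * c ^ 2 + (c ^ 2 + 1) ^ 2 / 4)
noncomputable def Gfun (c : ℝ) : ℝ := c2 * (c ^ 4 + c ^ 2) / 4 - (2 * c ^ 2 + (c ^ 2 + 1) ^ 2 / 4) / 8
noncomputable def Gam (t : ℝ) : ℝ := 177 / 4000 * t ^ 5 - 1 / 50 * t ^ 3 - 1 / 32 * t
noncomputable def Eerr : ℝ := 4 * eps * Dl + 7 / 5 * eps ^ 4

lemma NN_mul_Dl : (NN : ℝ) * Dl = 2 := by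
  simp only [NN, Dl]; norm_num

lemma Hfun_pos (c : ℝ) : 0 < Hfun c := by
  simp only [Hfun, Rfun, eps, c2, Dl]
  have : 0 ≤ c ^ 4 + c ^ 2 := by positivity
  nlinarith

lemma usq_nonneg (c : ℝ) : 0 ≤ usq c := by
  simp only [usq]; positivity

lemma term_le (c : ℝ) (h1 : -1 ≤ c) (h2 : c ≤ 1) :
    Hfun c ^ 2 / Real.sqrt (1 + usq c) ≤ 1 / 4 + eps ^ 2 * Gfun c + Eerr := by
  set y := c ^ 2 with hy
  have hy0 : 0 ≤ y := sq_nonneg c
  have hy1 : y ≤ 1 := by rw [hy]; nlinarith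
  have hc4 : c ^ 4 = y ^ 2 := by rw [hy]; ring
  set r := (y ^ 2 + y) / 4 with hr
  set W := 2 * y + (y + 1) ^ 2 / 4 with hW
  have hr0 : 0 ≤ r := by rw [hr]; positivity
  have hr1 : r ≤ 1 / 2 := by rw [hr]; nlinarith
  have hW0 : 0 ≤ W := by rw [hW]; positivity
  have hW1 : W ≤ 3 := by rw [hW]; nlinarith
  set α := eps ^ 2 * c2 * r + 4 * eps * Dl with hα
  set u := eps ^ 2 * W with hu
  have hH : Hfun c = 1 / 2 + α := by
    simp only [Hfun, Rfun, hα, hr, hc4]; ring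
  have hU : usq c = u := rfl
  have hG : eps ^ 2 * Gfun c = eps ^ 2 * c2 * r - u / 8 := by
    simp only [Gfun, hu, hW, hr, hc4]; ring
  have hα0 : 0 ≤ α := by
    rw [hα]; simp only [eps, c2, Dl]; positivity
  have hα1 : α ≤ 51 / 100 * eps ^ 2 := by
    rw [hα]; simp only [eps, c2, Dl]; nlinarith
  have hu0 : 0 ≤ u := by rw [hu]; simp only [eps]; positivity
  have hu1 : u ≤ 3 * eps ^ 2 := by rw [hu]; simp only [eps]; nlinarith
  have hu1' : u ≤ 1 := by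
    refine hu1.trans ?_
    simp only [eps]; norm_num
  have hinv := inv_sqrt_le u hu0 hu1'
  rw [hH, hU, hG]
  have hsq : 0 ≤ (1 / 2 + α) ^ 2 := sq_nonneg _
  calc (1 / 2 + α) ^ 2 / Real.sqrt (1 + u) = (1 / 2 + α) ^ 2 * (1 / Real.sqrt (1 + u)) := by ring
    _ ≤ (1 / 2 + α) ^ 2 * (1 - u / 2 + u ^ 2 / 2) := mul_le_mul_of_nonneg_left hinv hsq
    _ = 1 / 4 + α - u / 8 + α ^ 2 + u ^ 2 / 8 - (α + α ^ 2) * (u * (1 - u) / 2) := by ring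
    _ ≤ 1 / 4 + α - u / 8 + α ^ 2 + u ^ 2 / 8 := by
        have : 0 ≤ (α + α ^ 2) * (u * (1 - u) / 2) := by
          apply mul_nonneg (by positivity)
          apply div_nonneg (mul_nonneg hu0 (by linarith)) (by norm_num)
        linarith
    _ ≤ 1 / 4 + (eps ^ 2 * c2 * r - u / 8) + Eerr := by
        have a2 : α ^ 2 ≤ (51 / 100 * eps ^ 2) ^ 2 := pow_le_pow_left₀ hα0 hα1 2
        have u2 : u ^ 2 ≤ (3 * eps ^ 2) ^ 2 := pow_le_pow_left₀ hu0 hu1 2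
        have : α = eps ^ 2 * c2 * r + 4 * eps * Dl := hα
        simp only [Eerr]
        have e4 : (51 / 100 * eps ^ 2) ^ 2 + (3 * eps ^ 2) ^ 2 / 8 ≤ 7 / 5 * eps ^ 4 := by
          simp only [eps]; norm_num
        linarith

lemma Gfun_step (c Δ : ℝ) (h1 : -1 ≤ c) (h2 : c ≤ 1) (hΔ0 : 0 ≤ Δ) (hΔ1 : Δ ≤ 1) :
    Gfun c * Δ ≤ Gam (c + Δ) - Gam c + 2 * Δ ^ 2 := by
  have e : Gam (c + Δ) - Gam c - Gfun c * Δ
      = Δ ^ 2 * (177 / 4000 * (10 * c ^ 3 + 10 * c ^ 2 * Δ + 5 * c * Δ ^ 2 + Δ ^ 3)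
          - 1 / 50 * (3 * c + Δ)) := by
    simp only [Gam, Gfun, c2]; ring
  have hc2 : c ^ 2 ≤ 1 := by nlinarith
  have hc3 : -1 ≤ c ^ 3 := by nlinarith [sq_nonneg c, sq_nonneg (c + 1)]
  have hΔ2 : Δ ^ 2 ≤ 1 := by nlinarith
  have b1 : 0 ≤ c ^ 2 * Δ := by positivity
  have b2 : -1 ≤ c * Δ ^ 2 := by nlinarith [sq_nonneg Δ]
  have b3 : 0 ≤ Δ ^ 3 := by positivity
  have key : -2 ≤ 177 / 4000 * (10 * c ^ 3 + 10 * c ^ 2 * Δ + 5 * c * Δ ^ 2 + Δ ^ 3)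
          - 1 / 50 * (3 * c + Δ) := by linarith
  have := mul_le_mul_of_nonneg_left key (sq_nonneg Δ)
  linarith

lemma sum_Gfun (N : ℕ) (Δ : ℝ) (hΔ0 : 0 ≤ Δ) (hΔ1 : Δ ≤ 1) (hN : (N : ℝ) * Δ = 2) :
    ∑ i ∈ range N, Gfun (-1 + i * Δ) * Δ ≤ Gam 1 - Gam (-1) + 2 * N * Δ ^ 2 := by
  have hstep : ∀ i ∈ range N, Gfun (-1 + i * Δ) * Δ ≤
      (Gam (-1 + ((i + 1 : ℕ) : ℝ) * Δ) - Gam (-1 + (i : ℝ) * Δ)) + 2 * Δ ^ 2 := by
    intro i hi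
    have hi' : (i : ℝ) + 1 ≤ N := by
      have := mem_range.mp hi
      exact_mod_cast this
    have hiΔ : (i : ℝ) * Δ + Δ ≤ 2 := by
      have := mul_le_mul_of_nonneg_right hi' hΔ0
      linarith
    have hi0 : 0 ≤ (i : ℝ) * Δ := by positivity
    have := Gfun_step (-1 + i * Δ) Δ (by linarith) (by linarith) hΔ0 hΔ1
    have e : -1 + ((i + 1 : ℕ) : ℝ) * Δ = -1 + i * Δ + Δ := by push_cast; ring
    rw [e]; exact this
  calc ∑ i ∈ range N, Gfun (-1 + i * Δ) * Δ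
      ≤ ∑ i ∈ range N, ((Gam (-1 + ((i + 1 : ℕ) : ℝ) * Δ) - Gam (-1 + (i : ℝ) * Δ)) + 2 * Δ ^ 2) :=
        sum_le_sum hstep
    _ = (Gam (-1 + (N : ℝ) * Δ) - Gam (-1 + ((0 : ℕ) : ℝ) * Δ)) + N * (2 * Δ ^ 2) := by
        rw [sum_add_distrib, sum_range_sub (fun i : ℕ => Gam (-1 + (i : ℝ) * Δ))]
        simp
    _ = Gam 1 - Gam (-1) + 2 * N * Δ ^ 2 := by
        rw [hN]; norm_num; ring

/-- the total normalised cost of one family -/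
lemma sum_term_le :
    ∑ i ∈ range NN, Hfun (-1 + i * Dl) ^ 2 / Real.sqrt (1 + usq (-1 + i * Dl)) * Dl
      ≤ 1 / 2 - 1 / 10 ^ 6 := by
  have hD0 : 0 ≤ Dl := by simp only [Dl]; norm_num
  have hD1 : Dl ≤ 1 := by simp only [Dl]; norm_num
  have hstep : ∀ i ∈ range NN, Hfun (-1 + i * Dl) ^ 2 / Real.sqrt (1 + usq (-1 + i * Dl)) * Dl ≤
      (1 / 4 + Eerr) * Dl + eps ^ 2 * (Gfun (-1 + i * Dl) * Dl) := by
    intro i hi
    have hi' : (i : ℝ) + 1 ≤ NN := by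
      have := mem_range.mp hi
      exact_mod_cast this
    have hiΔ : (i : ℝ) * Dl + Dl ≤ 2 := by
      have := mul_le_mul_of_nonneg_right hi' hD0
      rw [NN_mul_Dl] at this
      linarith
    have hi0 : 0 ≤ (i : ℝ) * Dl := by positivity
    have := term_le (-1 + i * Dl) (by linarith) (by linarith)
    have := mul_le_mul_of_nonneg_right this hD0
    linarith
  have hG := sum_Gfun NN Dl hD0 hD1 NN_mul_Dl
  calc _ ≤ ∑ i ∈ range NN, ((1 / 4 + Eerr) * Dl + eps ^ 2 * (Gfun (-1 + i * Dl) * Dl)) :=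
        sum_le_sum hstep
    _ = (NN : ℝ) * ((1 / 4 + Eerr) * Dl) + eps ^ 2 * ∑ i ∈ range NN, Gfun (-1 + i * Dl) * Dl := by
        rw [sum_add_distrib, mul_sum]; simp
    _ ≤ (NN : ℝ) * ((1 / 4 + Eerr) * Dl) + eps ^ 2 * (Gam 1 - Gam (-1) + 2 * NN * Dl ^ 2) := by
        have : 0 ≤ eps ^ 2 := sq_nonneg _
        have := mul_le_mul_of_nonneg_left hG this
        linarith
    _ ≤ 1 / 2 - 1 / 10 ^ 6 := by
        simp only [NN, Dl, Eerr, eps, Gam]; norm_num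

end Crest.Agent.Cyl
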