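import Mathlib

/-!
Real-variable lemmas for the tetrahedron cover.
-/

set_option autoImplicit false

namespace Crest.Agent.Cyl

/-- solving the sweep equations -/
lemma sweep_root (k y s : ℝ) (hy : |y| ≤ s) :
    ∃ t ρ : ℝ, -1 ≤ t ∧ t ≤ 1 ∧ 0 ≤ ρ ∧ s = ρ + k * t ∧ y = ρ * t + k * (t ^ 2 + 1) / 2 := by
  have hs : 0 ≤ s := (abs_nonneg y).trans hy
  obtain ⟨hy1, hy2⟩ := abs_le.mp hy
  have hdisc : 0 ≤ s ^ 2 - 2 * k * y + k ^ 2 := by nlinarith [sq_nonneg (y - k)]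
  set ρ := Real.sqrt (s ^ 2 - 2 * k * y + k ^ 2) with hρ
  have hρ0 : 0 ≤ ρ := Real.sqrt_nonneg _
  have hρ2 : ρ ^ 2 = s ^ 2 - 2 * k * y + k ^ 2 := Real.sq_sqrt hdisc
  have hρge : |y - k| ≤ ρ := by
    apply abs_le_of_sq_le_sq _ hρ0
    nlinarith
  obtain ⟨hk1, hk2⟩ := abs_le.mp hρge
  rcases (add_nonneg hs hρ0).eq_or_lt with h0 | hpos
  · have hs0 : s = 0 := by linarith
    have hρ00 : ρ = 0 := by linarith
    have hy0 : y = 0 := by rw [hs0] at hy1 hy2; linarith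
    have hk0 : k = 0 := by
      rw [hρ00, hs0, hy0] at hρ2
      have : k ^ 2 = 0 := by linarith
      exact pow_eq_zero_iff (two_ne_zero) |>.mp this
    exact ⟨0, 0, by norm_num, by norm_num, le_rfl, by rw [hs0]; ring, by rw [hy0, hk0]; ring⟩
  · have hne : s + ρ ≠ 0 := hpos.ne'
    set t := (2 * y - k) / (s + ρ) with ht
    have ht1 : t * (s + ρ) = 2 * y - k := by rw [ht]; field_simp
    have hkt : k * t = s - ρ := by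
      have : k * t * (s + ρ) = (s - ρ) * (s + ρ) := by
        calc k * t * (s + ρ) = k * (t * (s + ρ)) := by ring
          _ = k * (2 * y - k) := by rw [ht1]
          _ = (s - ρ) * (s + ρ) := by nlinarith
      exact mul_right_cancel₀ hne this
    refine ⟨t, ρ, ?_, ?_, hρ0, by linarith, ?_⟩
    · rw [ht, le_div_iff₀ hpos]; linarith
    · rw [ht, div_le_one hpos]; linarith
    · have : k * t ^ 2 = (s - ρ) * t := by rw [← hkt]; ring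
      nlinarith

/-- the exact interface identity -/
lemma interface_identity (ε x y s t ρ T P : ℝ)
    (h1 : s = ρ + ε * x * t) (h2 : y = ρ * t + ε * x * (t ^ 2 + 1) / 2)
    (h3 : 1 - s = P + ε * y * T) (h4 : -x = P * T + ε * y * (T ^ 2 + 1) / 2) :
    (ρ - 1 / 2) * (1 + ε * t * T + ε ^ 2 / 4 * (T ^ 2 + 1) * (1 - t ^ 2))
      + (P - 1 / 2) * (1 - ε * t * T + ε ^ 2 / 4 * (t ^ 2 + 1) * (1 - T ^ 2))
      = ε ^ 2 / 4 * (2 * t ^ 2 * T ^ 2 + t ^ 2 + T ^ 2) := by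
  linear_combination (-(1 + ε ^ 2 / 4 * (t ^ 2 + 1) * (T ^ 2 + 1))) * h1
    + (-(1 + ε ^ 2 / 4 * (t ^ 2 + 1) * (T ^ 2 + 1))) * h3
    + (ε * t + ε ^ 2 / 2 * T * (t ^ 2 + 1)) * h4
    + (-ε * T + ε ^ 2 / 2 * t * (T ^ 2 + 1)) * h2


lemma poly_ineq (ε c₂ t T : ℝ) (hc1 : 1 ≤ c₂)
    (hc : 9 / 8 * c₂ ^ 2 * ε ^ 2 ≤ c₂ - 1) (ht1 : -1 ≤ t) (ht2 : t ≤ 1) (hT1 : -1 ≤ T) (hT2 : T ≤ 1) :
    2 * t ^ 2 * T ^ 2 + t ^ 2 + T ^ 2 ≤
      c₂ * ((t ^ 4 + t ^ 2) * (1 + ε * t * T) + (T ^ 4 + T ^ 2) * (1 - ε * t * T)) := by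
  set p := t ^ 2 with hp
  set q := T ^ 2 with hq
  have hp0 : 0 ≤ p := sq_nonneg t
  have hq0 : 0 ≤ q := sq_nonneg T
  have hp1 : p ≤ 1 := by rw [hp]; nlinarith
  have hq1 : q ≤ 1 := by rw [hq]; nlinarith
  set m := t * T with hm
  have hm2 : m ^ 2 = p * q := by rw [hm, hp, hq]; ring
  have e : c₂ * ((t ^ 4 + t ^ 2) * (1 + ε * t * T) + (T ^ 4 + T ^ 2) * (1 - ε * t * T))
      - (2 * t ^ 2 * T ^ 2 + t ^ 2 + T ^ 2)
      = (c₂ - 1) * (p ^ 2 + p + q ^ 2 + q) + (p - q) ^ 2 + c₂ * ε * m * (p - q) * (p + q + 1) := by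
    rw [hp, hq, hm]; ring
  have sq := sq_nonneg ((p - q) + c₂ * ε * m * (p + q + 1) / 2)
  have b1 : (p + q + 1) ^ 2 ≤ 9 := by nlinarith
  have b2 : p * q ≤ (p ^ 2 + q ^ 2) / 2 := by nlinarith [sq_nonneg (p - q)]
  have b3 : c₂ ^ 2 * ε ^ 2 * m ^ 2 * (p + q + 1) ^ 2 / 4 ≤ (c₂ - 1) * (p ^ 2 + q ^ 2) := by
    have h0 : 0 ≤ c₂ ^ 2 * ε ^ 2 := by positivity
    have hpq : 0 ≤ p * q := mul_nonneg hp0 hq0
    calc c₂ ^ 2 * ε ^ 2 * m ^ 2 * (p + q + 1) ^ 2 / 4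
        = c₂ ^ 2 * ε ^ 2 * ((p * q) * (p + q + 1) ^ 2) / 4 := by rw [hm2]; ring
      _ ≤ c₂ ^ 2 * ε ^ 2 * ((p * q) * 9) / 4 := by
          have := mul_le_mul_of_nonneg_left b1 hpq
          have := mul_le_mul_of_nonneg_left this h0
          linarith
      _ ≤ c₂ ^ 2 * ε ^ 2 * (((p ^ 2 + q ^ 2) / 2) * 9) / 4 := by
          have := mul_le_mul_of_nonneg_left b2 h0
          linarith
      _ = (9 / 8 * c₂ ^ 2 * ε ^ 2) * (p ^ 2 + q ^ 2) := by ring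
      _ ≤ (c₂ - 1) * (p ^ 2 + q ^ 2) := mul_le_mul_of_nonneg_right hc (by positivity)
  have b4 : 0 ≤ (c₂ - 1) * (p + q) := mul_nonneg (by linarith) (by linarith)
  nlinarith

lemma interface_or (ε c₂ x y s t ρ T P : ℝ) (hε : 0 ≤ ε) (hε1 : ε ≤ 1 / 2) (hc1 : 1 ≤ c₂)
    (hc : 9 / 8 * c₂ ^ 2 * ε ^ 2 ≤ c₂ - 1) (ht1 : -1 ≤ t) (ht2 : t ≤ 1) (hT1 : -1 ≤ T) (hT2 : T ≤ 1)
    (h1 : s = ρ + ε * x * t) (h2 : y = ρ * t + ε * x * (t ^ 2 + 1) / 2)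
    (h3 : 1 - s = P + ε * y * T) (h4 : -x = P * T + ε * y * (T ^ 2 + 1) / 2) :
    ρ ≤ 1 / 2 + ε ^ 2 * c₂ * (t ^ 4 + t ^ 2) / 4 ∨ P ≤ 1 / 2 + ε ^ 2 * c₂ * (T ^ 4 + T ^ 2) / 4 := by
  by_contra hcon
  push Not at hcon
  obtain ⟨ha, hb⟩ := hcon
  have hid := interface_identity ε x y s t ρ T P h1 h2 h3 h4
  have hpoly := poly_ineq ε c₂ t T hc1 hc ht1 ht2 hT1 hT2
  have htT : |t * T| ≤ 1 := by
    rw [abs_mul]
    have h5 : |t| ≤ 1 := abs_le.mpr ⟨ht1, ht2⟩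
    have h6 : |T| ≤ 1 := abs_le.mpr ⟨hT1, hT2⟩
    calc |t| * |T| ≤ 1 * 1 := mul_le_mul h5 h6 (abs_nonneg _) (by norm_num)
      _ = 1 := by norm_num
  obtain ⟨m1, m2⟩ := abs_le.mp htT
  have ht2' : t ^ 2 ≤ 1 := by nlinarith
  have hT2' : T ^ 2 ≤ 1 := by nlinarith
  have em1 : -(1/2) ≤ ε * (t * T) := by nlinarith
  have em2 : ε * (t * T) ≤ 1 / 2 := by nlinarith
  set ca := 1 + ε * t * T + ε ^ 2 / 4 * (T ^ 2 + 1) * (1 - t ^ 2) with hca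
  set cb := 1 - ε * t * T + ε ^ 2 / 4 * (t ^ 2 + 1) * (1 - T ^ 2) with hcb
  have k1 : 0 ≤ ε ^ 2 / 4 * (T ^ 2 + 1) * (1 - t ^ 2) :=
    mul_nonneg (by positivity) (by linarith)
  have k2 : 0 ≤ ε ^ 2 / 4 * (t ^ 2 + 1) * (1 - T ^ 2) :=
    mul_nonneg (by positivity) (by linarith)
  have hca1 : 1 + ε * t * T ≤ ca := by rw [hca]; linarith
  have hcb1 : 1 - ε * t * T ≤ cb := by rw [hcb]; linarith
  have hassoc : ε * t * T = ε * (t * T) := by ring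
  have hca0 : 0 < ca := by linarith
  have hcb0 : 0 < cb := by linarith
  set a0 := ε ^ 2 * c₂ * (t ^ 4 + t ^ 2) / 4 with ha0
  set b0 := ε ^ 2 * c₂ * (T ^ 4 + T ^ 2) / 4 with hb0
  have ha00 : 0 ≤ a0 := by rw [ha0]; positivity
  have hb00 : 0 ≤ b0 := by rw [hb0]; positivity
  have s1 : a0 * ca < (ρ - 1 / 2) * ca := mul_lt_mul_of_pos_right (by linarith) hca0
  have s2 : b0 * cb < (P - 1 / 2) * cb := mul_lt_mul_of_pos_right (by linarith) hcb0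
  have s3 : a0 * (1 + ε * t * T) ≤ a0 * ca := mul_le_mul_of_nonneg_left hca1 ha00
  have s4 : b0 * (1 - ε * t * T) ≤ b0 * cb := mul_le_mul_of_nonneg_left hcb1 hb00
  have s5 : ε ^ 2 / 4 * (2 * t ^ 2 * T ^ 2 + t ^ 2 + T ^ 2) ≤
      a0 * (1 + ε * t * T) + b0 * (1 - ε * t * T) := by
    have := mul_le_mul_of_nonneg_left hpoly (show 0 ≤ ε ^ 2 / 4 by positivity)
    rw [ha0, hb0]
    linarith
  linarith


end Crest.Agent.Cyl
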