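import Crest.Agent.Lib_Cyl.Piece
import Crest.Agent.Lib_Cyl.TetraReal
import Crest.Agent.Lib_Cyl.TetraNum

/-!
One radial sweep family (frame generic).
-/

set_option autoImplicit false
open MeasureTheory Set

namespace Crest.Agent.Cyl

noncomputable def Wv (a b : E3) (c : ℝ) : E3 := c • a + ((c ^ 2 + 1) / 2) • b
noncomputable def dv (e a b : E3) (c : ℝ) : E3 := e + eps • Wv a b c

lemma inner_Wv (e a b : E3) (c : ℝ) (ha : inner ℝ a e = 0) (hb : inner ℝ b e = 0) :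
    inner ℝ (eps • Wv a b c) e = 0 := by
  simp [Wv, inner_add_left, inner_smul_left, ha, hb]

lemma norm_Wv (a b : E3) (c : ℝ) (hna : ‖a‖ ^ 2 = 2) (hnb : ‖b‖ ^ 2 = 1)
    (hab : inner ℝ a b = 0) : ‖eps • Wv a b c‖ ^ 2 = usq c := by
  rw [norm_smul, mul_pow, Wv, norm_add_sq_real, norm_smul, norm_smul, mul_pow, mul_pow, hna, hnb,
    inner_smul_left, inner_smul_right, hab]
  simp only [Real.norm_eq_abs, sq_abs, usq, mul_zero, add_zero]
  ring

lemma gram_frame (a b : E3) (hna : ‖a‖ ^ 2 = 2) (hnb : ‖b‖ ^ 2 = 1)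
    (hab : inner ℝ a b = 0) : gram a b = 2 := by
  simp [gram, hna, hnb, hab]

lemma eps_pos : 0 < eps := by simp only [eps]; norm_num
lemma Dl_pos : 0 < Dl := by simp only [Dl]; norm_num

lemma Rfun_step (t0 t : ℝ) (h0 : -1 ≤ t0) (h1 : t0 ≤ t) (h2 : t ≤ t0 + Dl) (h3 : t0 + Dl ≤ 1) :
    Rfun t ≤ Rfun t0 + eps * Dl := by
  have e : Rfun t - Rfun t0 = eps ^ 2 * c2 / 4 * ((t - t0) * ((t + t0) * (t ^ 2 + t0 ^ 2 + 1))) := by
    simp only [Rfun]; ring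
  have hD := Dl_pos
  have ht1 : t ≤ 1 := by linarith
  have ht0 : -1 ≤ t := by linarith
  have ht01 : t0 ≤ 1 := by linarith
  have a1 : t ^ 2 ≤ 1 := by nlinarith
  have a2 : t0 ^ 2 ≤ 1 := by nlinarith
  have M : (t + t0) * (t ^ 2 + t0 ^ 2 + 1) ≤ 6 := by
    have p1 : 0 < t ^ 2 + t0 ^ 2 + 1 := by positivity
    calc (t + t0) * (t ^ 2 + t0 ^ 2 + 1) ≤ 2 * (t ^ 2 + t0 ^ 2 + 1) :=
          mul_le_mul_of_nonneg_right (by linarith) p1.le
      _ ≤ 6 := by linarith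
  have M2 : (t - t0) * ((t + t0) * (t ^ 2 + t0 ^ 2 + 1)) ≤ Dl * 6 := by
    calc (t - t0) * ((t + t0) * (t ^ 2 + t0 ^ 2 + 1)) ≤ (t - t0) * 6 :=
          mul_le_mul_of_nonneg_left M (by linarith)
      _ ≤ Dl * 6 := by linarith
  have c : 0 ≤ eps ^ 2 * c2 / 4 := by simp only [eps, c2]; norm_num
  have := mul_le_mul_of_nonneg_left M2 c
  have f : eps ^ 2 * c2 / 4 * (Dl * 6) ≤ eps * Dl := by
    simp only [eps, c2, Dl]; norm_num
  linarith

/-- the points swept by one thin piece lie in the cylinder over the projected thin triangle -/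
lemma sweep_mem (e a b p₀ : E3) (he : ‖e‖ = 1) (ha : inner ℝ a e = 0) (hb : inner ℝ b e = 0)
    (t0 t ρ x : ℝ) (h0 : -1 ≤ t0) (h1 : t0 ≤ t) (h2 : t ≤ t0 + Dl) (h3 : t0 + Dl ≤ 1)
    (hρ0 : 0 ≤ ρ) (hρ : ρ ≤ Rfun t) (hx : |x| ≤ 1) :
    p₀ + ρ • (a + t • b) + x • dv e a b t ∈
      cyl (convexHull ℝ ({projD (dv e a b t0) (triP a b p₀ t0 (t0 + Dl) (eps * Dl)),
        projD (dv e a b t0) (triQ a b p₀ t0 (t0 + Dl) (eps * Dl) (Hfun t0)),
        projD (dv e a b t0) (triR a b p₀ t0 (t0 + Dl) (eps * Dl) (Hfun t0))} : Set E3))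
        (dv e a b t0) := by
  have hD := Dl_pos
  have hE := eps_pos
  have hd : dv e a b t0 ≠ 0 := add_perp_ne_zero e _ he (inner_Wv e a b t0 ha hb)
  set sA := x * eps * (t - t0) with hsA
  set sB := x * eps * (t ^ 2 - t0 ^ 2) / 2 with hsB
  have key : p₀ + ρ • (a + t • b) + x • dv e a b t
      = (p₀ + ρ • (a + t • b) + (sA • a + sB • b)) + x • dv e a b t0 := by
    simp only [dv, Wv, hsA, hsB]
    module
  rw [key]
  apply mem_cyl_tri _ _ _ _ _ _ hd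
  have hδ0 : 0 ≤ t - t0 := by linarith
  have hδ1 : t - t0 ≤ Dl := by linarith
  have hxe : |x * eps| ≤ eps := by
    rw [abs_mul, abs_of_pos hE]
    exact mul_le_of_le_one_left hE.le hx
  have gen : ∀ z : ℝ, 0 ≤ z → ∀ B : ℝ, z ≤ B → |x * eps * z| ≤ eps * B := by
    intro z hz B hB
    rw [abs_mul, abs_of_nonneg hz]
    exact mul_le_mul hxe hB hz hE.le
  apply piece_mem a b p₀ t0 (t0 + Dl) (eps * Dl) (Hfun t0) ρ t sA sB (by linarith) (Hfun_pos t0)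
    hρ0 h1 h2
  · exact gen _ hδ0 _ hδ1
  · have : sB - t0 * sA = x * eps * ((t - t0) ^ 2 / 2) := by rw [hsA, hsB]; ring
    rw [this]
    have := gen ((t - t0) ^ 2 / 2) (by positivity) (Dl * (t0 + Dl - t0)) (by nlinarith)
    rw [← mul_assoc eps] at this
    exact this
  · have : (t0 + Dl) * sA - sB = x * eps * ((t - t0) * (t0 + Dl - (t + t0) / 2)) := by
      rw [hsA, hsB]; ring
    rw [this]
    have := gen ((t - t0) * (t0 + Dl - (t + t0) / 2)) (mul_nonneg hδ0 (by linarith))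
      (Dl * (t0 + Dl - t0)) (mul_le_mul hδ1 (by linarith) (by linarith) hD.le)
    rw [← mul_assoc eps] at this
    exact this
  · have := Rfun_step t0 t h0 h1 h2 h3
    simp only [Hfun]
    linarith

lemma exists_index (t : ℝ) (h1 : -1 ≤ t) (h2 : t ≤ 1) :
    ∃ i : ℕ, i < NN ∧ -1 + (i : ℝ) * Dl ≤ t ∧ t ≤ -1 + (i : ℝ) * Dl + Dl := by
  have hD := Dl_pos
  rcases h2.eq_or_lt with h | h
  · refine ⟨NN - 1, by simp [NN], ?_, ?_⟩
    · rw [h]; simp only [NN, Dl]; norm_num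
    · rw [h]; simp only [NN, Dl]; norm_num
  · have hz : 0 ≤ (t + 1) / Dl := div_nonneg (by linarith) hD.le
    refine ⟨⌊(t + 1) / Dl⌋₊, ?_, ?_, ?_⟩
    · have h3 : (⌊(t + 1) / Dl⌋₊ : ℝ) ≤ (t + 1) / Dl := Nat.floor_le hz
      have h4 : (t + 1) / Dl < NN := by
        rw [div_lt_iff₀ hD, NN_mul_Dl]; linarith
      exact_mod_cast h3.trans_lt h4
    · have h3 : (⌊(t + 1) / Dl⌋₊ : ℝ) ≤ (t + 1) / Dl := Nat.floor_le hz
      rw [le_div_iff₀ hD] at h3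
      linarith
    · have h3 : (t + 1) / Dl < ⌊(t + 1) / Dl⌋₊ + 1 := Nat.lt_floor_add_one _
      rw [div_lt_iff₀ hD] at h3
      linarith

/-! ### the family attached to a frame -/

noncomputable def tt (i : ℕ) : ℝ := -1 + (i : ℝ) * Dl
noncomputable def famU (e a b : E3) (i : ℕ) : E3 := (‖dv e a b (tt i)‖)⁻¹ • dv e a b (tt i)
noncomputable def famP (e a b p₀ : E3) (i : ℕ) : E3 :=
  projD (dv e a b (tt i)) (triP a b p₀ (tt i) (tt i + Dl) (eps * Dl))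
noncomputable def famQ (e a b p₀ : E3) (i : ℕ) : E3 :=
  projD (dv e a b (tt i)) (triQ a b p₀ (tt i) (tt i + Dl) (eps * Dl) (Hfun (tt i)))
noncomputable def famR (e a b p₀ : E3) (i : ℕ) : E3 :=
  projD (dv e a b (tt i)) (triR a b p₀ (tt i) (tt i + Dl) (eps * Dl) (Hfun (tt i)))

lemma dv_ne_zero (e a b : E3) (he : ‖e‖ = 1) (ha : inner ℝ a e = 0) (hb : inner ℝ b e = 0)
    (c : ℝ) : dv e a b c ≠ 0 := add_perp_ne_zero e _ he (inner_Wv e a b c ha hb)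

lemma famU_norm (e a b : E3) (he : ‖e‖ = 1) (ha : inner ℝ a e = 0) (hb : inner ℝ b e = 0)
    (i : ℕ) : ‖famU e a b i‖ = 1 := norm_inv_smul _ (dv_ne_zero e a b he ha hb _)

lemma inner_projD_unit (d x : E3) (hd : d ≠ 0) : inner ℝ (projD d x) ((‖d‖)⁻¹ • d) = 0 := by
  rw [inner_smul_right, inner_projD d x hd, mul_zero]

lemma fam_perp (e a b p₀ : E3) (he : ‖e‖ = 1) (ha : inner ℝ a e = 0) (hb : inner ℝ b e = 0)
    (i : ℕ) : inner ℝ (famP e a b p₀ i) (famU e a b i) = 0 ∧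
      inner ℝ (famQ e a b p₀ i) (famU e a b i) = 0 ∧
      inner ℝ (famR e a b p₀ i) (famU e a b i) = 0 :=
  ⟨inner_projD_unit _ _ (dv_ne_zero e a b he ha hb _),
   inner_projD_unit _ _ (dv_ne_zero e a b he ha hb _),
   inner_projD_unit _ _ (dv_ne_zero e a b he ha hb _)⟩

lemma fam_cover (e a b p₀ : E3) (he : ‖e‖ = 1) (ha : inner ℝ a e = 0) (hb : inner ℝ b e = 0)
    (t ρ x : ℝ) (h1 : -1 ≤ t) (h2 : t ≤ 1) (hρ0 : 0 ≤ ρ) (hρ : ρ ≤ Rfun t) (hx : |x| ≤ 1) :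
    ∃ i : ℕ, i < NN ∧ p₀ + ρ • (a + t • b) + x • dv e a b t ∈
      {x : E3 | ∃ y ∈ convexHull ℝ ({famP e a b p₀ i, famQ e a b p₀ i, famR e a b p₀ i} : Set E3),
        ∃ s : ℝ, x = y + s • famU e a b i} := by
  obtain ⟨i, hi, hi1, hi2⟩ := exists_index t h1 h2
  refine ⟨i, hi, ?_⟩
  have hD := Dl_pos
  have hi' : (i : ℝ) + 1 ≤ NN := by exact_mod_cast hi
  have hiΔ : (i : ℝ) * Dl + Dl ≤ 2 := by
    have := mul_le_mul_of_nonneg_right hi' hD.le
    rw [NN_mul_Dl] at this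
    linarith
  have hi0 : 0 ≤ (i : ℝ) * Dl := by positivity
  have hm := sweep_mem e a b p₀ he ha hb (tt i) t ρ x (by simp only [tt]; linarith) hi1 hi2
    (by simp only [tt]; linarith) hρ0 hρ hx
  have hd := dv_ne_zero e a b he ha hb (tt i)
  have hn : (‖dv e a b (tt i)‖)⁻¹ ≠ 0 := inv_ne_zero (norm_ne_zero_iff.mpr hd)
  rw [← cyl_smul _ _ _ hn] at hm
  exact hm

lemma fam_area (e a b p₀ : E3) (he : ‖e‖ = 1) (ha : inner ℝ a e = 0) (hb : inner ℝ b e = 0)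
    (hna : ‖a‖ ^ 2 = 2) (hnb : ‖b‖ ^ 2 = 1) (hab : inner ℝ a b = 0) (i : ℕ) :
    (μHE[2] (convexHull ℝ ({famP e a b p₀ i, famQ e a b p₀ i, famR e a b p₀ i} : Set E3))).toReal
      = Real.sqrt 2 / 2 * (Hfun (tt i) ^ 2 / Real.sqrt (1 + usq (tt i)) * Dl) := by
  have h := piece_area e a b p₀ (eps • Wv a b (tt i)) he ha hb (inner_Wv e a b _ ha hb)
    (tt i) (tt i + Dl) (eps * Dl) (Hfun (tt i)) (by linarith [Dl_pos])
  simp only [famP, famQ, famR, dv]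
  rw [h, norm_Wv a b _ hna hnb hab, gram_frame a b hna hnb hab, ENNReal.toReal_ofReal]
  · have : 0 < Real.sqrt (1 + usq (tt i)) := Real.sqrt_pos.mpr (by linarith [usq_nonneg (tt i)])
    field_simp
    ring
  · have := Dl_pos
    apply div_nonneg
    · apply mul_nonneg (mul_nonneg (Real.sqrt_nonneg _) (sq_nonneg _)); linarith
    · positivity

lemma fam_total (e a b p₀ : E3) (he : ‖e‖ = 1) (ha : inner ℝ a e = 0) (hb : inner ℝ b e = 0)
    (hna : ‖a‖ ^ 2 = 2) (hnb : ‖b‖ ^ 2 = 1) (hab : inner ℝ a b = 0) :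
    ∑ i : Fin NN, (μHE[2] (convexHull ℝ ({famP e a b p₀ i, famQ e a b p₀ i, famR e a b p₀ i}
      : Set E3))).toReal ≤ Real.sqrt 2 / 2 * (1 / 2 - 1 / 10 ^ 6) := by
  rw [Fin.sum_univ_eq_sum_range (fun i : ℕ => (μHE[2] (convexHull ℝ ({famP e a b p₀ i,
    famQ e a b p₀ i, famR e a b p₀ i} : Set E3))).toReal) NN]
  simp_rw [fam_area e a b p₀ he ha hb hna hnb hab]
  rw [← Finset.mul_sum]
  apply mul_le_mul_of_nonneg_left _ (by positivity)
  exact sum_term_le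

end Crest.Agent.Cyl
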